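import Mathlib

/-!
# P043: translational tiles that are products
-/

namespace Vale.Agent.P043

universe u v

/-- `A ⊕ F = G`: every element is uniquely a sum of an element of `A` and an element of `F` -/
def IsTiling {G : Type u} [AddCommGroup G] (A F : Set G) : Prop :=
  ∀ g : G, ∃! p : G × G, p.1 ∈ A ∧ p.2 ∈ F ∧ p.1 + p.2 = g

/-- `A` is invariant under a subgroup of finite index -/
def IsPeriodic {G : Type u} [AddCommGroup G] (A : Set G) : Prop :=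
  ∃ K : AddSubgroup G, K.FiniteIndex ∧ ∀ h ∈ K, ∀ a, a ∈ A ↔ a + h ∈ A

/-- `F` is a translational tile -/
def IsTile {G : Type u} [AddCommGroup G] (F : Set G) : Prop := ∃ A, IsTiling A F

/-- `F` admits a periodic tiling -/
def HasPeriodicTiling {G : Type u} [AddCommGroup G] (F : Set G) : Prop :=
  ∃ A, IsTiling A F ∧ IsPeriodic A

theorem finiteIndex_comap' {G : Type*} {G' : Type*} [AddGroup G] [AddGroup G']
    (K : AddSubgroup G') (f : G →+ G') (hK : K.FiniteIndex) : (K.comap f).FiniteIndex :=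
  ⟨by
    rw [AddSubgroup.index_comap]
    exact (inferInstance : (K.addSubgroupOf f.range).FiniteIndex).index_ne_zero⟩

variable {G : Type u} {H : Type v} [AddCommGroup G] [AddCommGroup H]

theorem tiling_left {A : Set (G × H)} {F : Set G} {E : Set H} (h : IsTiling A (F ×ˢ E)) :
    IsTiling {a : G | ∃ b, (a, b) ∈ A ∧ -b ∈ E} F := by
  intro g
  obtain ⟨⟨⟨a, b⟩, ⟨f, e⟩⟩, ⟨h1, h2, h3⟩, huniq⟩ := h (g, 0)
  simp only [Prod.mk_add_mk, Prod.mk.injEq] at h3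
  have hbe : -b = e := by rw [neg_eq_iff_add_eq_zero]; exact h3.2
  refine ⟨(a, f), ⟨⟨b, h1, by rw [hbe]; exact h2.2⟩, h2.1, h3.1⟩, ?_⟩
  rintro ⟨a', f'⟩ ⟨⟨b', h4, h5⟩, h6, h7⟩
  have := huniq ((a', b'), (f', -b')) ⟨h4, ⟨h6, h5⟩, by
    simp only [Prod.mk_add_mk, add_neg_cancel, Prod.mk.injEq, and_true]; exact h7⟩
  simp only [Prod.mk.injEq] at this
  exact Prod.ext this.1.1 this.2.1

theorem tiling_right {A : Set (G × H)} {F : Set G} {E : Set H} (h : IsTiling A (F ×ˢ E)) :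
    IsTiling {b : H | ∃ a, (a, b) ∈ A ∧ -a ∈ F} E := by
  intro g
  obtain ⟨⟨⟨a, b⟩, ⟨f, e⟩⟩, ⟨h1, h2, h3⟩, huniq⟩ := h (0, g)
  simp only [Prod.mk_add_mk, Prod.mk.injEq] at h3
  have hbe : -a = f := by rw [neg_eq_iff_add_eq_zero]; exact h3.1
  refine ⟨(b, e), ⟨⟨a, h1, by rw [hbe]; exact h2.1⟩, h2.2, h3.2⟩, ?_⟩
  rintro ⟨b', e'⟩ ⟨⟨a', h4, h5⟩, h6, h7⟩
  have := huniq ((a', b'), (-a', e')) ⟨h4, ⟨h5, h6⟩, by
    simp only [Prod.mk_add_mk, add_neg_cancel, Prod.mk.injEq, true_and]; exact h7⟩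
  simp only [Prod.mk.injEq] at this
  exact Prod.ext this.1.2 this.2.2

theorem tiling_prod {A : Set G} {B : Set H} {F : Set G} {E : Set H} (h1 : IsTiling A F)
    (h2 : IsTiling B E) : IsTiling (A ×ˢ B) (F ×ˢ E) := by
  rintro ⟨g, k⟩
  obtain ⟨⟨a, f⟩, ⟨ha, hf, haf⟩, hu1⟩ := h1 g
  obtain ⟨⟨b, e⟩, ⟨hb, he, hbe⟩, hu2⟩ := h2 k
  refine ⟨((a, b), (f, e)), ⟨⟨ha, hb⟩, ⟨hf, he⟩, Prod.ext haf hbe⟩, ?_⟩
  rintro ⟨⟨a', b'⟩, ⟨f', e'⟩⟩ ⟨⟨h3, h4⟩, ⟨h5, h6⟩, h7⟩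
  simp only [Prod.mk_add_mk, Prod.mk.injEq] at h7
  have e1 := hu1 (a', f') ⟨h3, h5, h7.1⟩
  have e2 := hu2 (b', e') ⟨h4, h6, h7.2⟩
  simp only [Prod.mk.injEq] at e1 e2
  simp [e1, e2]

theorem periodic_left {A : Set (G × H)} (E : Set H) (h : IsPeriodic A) :
    IsPeriodic {a : G | ∃ b, (a, b) ∈ A ∧ -b ∈ E} := by
  obtain ⟨K, hK, h⟩ := h
  refine ⟨K.comap (AddMonoidHom.inl G H), finiteIndex_comap' K _ hK, fun x hx a => ?_⟩
  have hx' : (x, (0 : H)) ∈ K := hx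
  constructor
  · rintro ⟨b, h1, h2⟩
    refine ⟨b, ?_, h2⟩
    have := (h _ hx' (a, b)).mp h1
    simpa using this
  · rintro ⟨b, h1, h2⟩
    refine ⟨b, (h _ hx' (a, b)).mpr ?_, h2⟩
    simpa using h1

theorem periodic_right {A : Set (G × H)} (F : Set G) (h : IsPeriodic A) :
    IsPeriodic {b : H | ∃ a, (a, b) ∈ A ∧ -a ∈ F} := by
  obtain ⟨K, hK, h⟩ := h
  refine ⟨K.comap (AddMonoidHom.inr G H), finiteIndex_comap' K _ hK, fun x hx a => ?_⟩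
  have hx' : ((0 : G), x) ∈ K := hx
  constructor
  · rintro ⟨b, h1, h2⟩
    refine ⟨b, ?_, h2⟩
    have := (h _ hx' (b, a)).mp h1
    simpa using this
  · rintro ⟨b, h1, h2⟩
    refine ⟨b, (h _ hx' (b, a)).mpr ?_, h2⟩
    simpa using h1

theorem periodic_prod {A : Set G} {B : Set H} (h1 : IsPeriodic A) (h2 : IsPeriodic B) :
    IsPeriodic (A ×ˢ B) := by
  obtain ⟨K, hK, h1⟩ := h1
  obtain ⟨L, hL, h2⟩ := h2
  refine ⟨K.prod L, ⟨?_⟩, ?_⟩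
  · rw [AddSubgroup.index_prod]
    exact mul_ne_zero hK.index_ne_zero hL.index_ne_zero
  · rintro ⟨x, y⟩ ⟨hx, hy⟩ ⟨a, b⟩
    simp only [Set.mem_prod, Prod.mk_add_mk]
    rw [h1 x hx a, h2 y hy b]

theorem isTile_prod (F : Set G) (E : Set H) : IsTile (F ×ˢ E) ↔ IsTile F ∧ IsTile E :=
  ⟨fun ⟨_, h⟩ => ⟨⟨_, tiling_left h⟩, ⟨_, tiling_right h⟩⟩,
    fun ⟨⟨_, h1⟩, ⟨_, h2⟩⟩ => ⟨_, tiling_prod h1 h2⟩⟩

theorem hasPeriodicTiling_prod (F : Set G) (E : Set H) :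
    HasPeriodicTiling (F ×ˢ E) ↔ HasPeriodicTiling F ∧ HasPeriodicTiling E :=
  ⟨fun ⟨_, h, hp⟩ => ⟨⟨_, tiling_left h, periodic_left E hp⟩,
      ⟨_, tiling_right h, periodic_right F hp⟩⟩,
    fun ⟨⟨_, h1, p1⟩, ⟨_, h2, p2⟩⟩ => ⟨_, tiling_prod h1 h2, periodic_prod p1 p2⟩⟩

end Vale.Agent.P043
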